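import Crest.Agent.Helper75.OT.Defs

/-!
# Row 82 (S0109) — package MP: subgradient of `Mval` in the positions of labelled atoms

Self-contained (imports only the shared definitions).  The auxiliary facts on the source measure
and on the cells are proved here in the namespace `Crest.Agent.Helper54.OT`, so that this file has
no dependency on the other packages; the final statement is
`Crest.Agent.Helper75.OT.Mval_position_subgrad`, verbatim as in the package interface.

Proof (Fenchel–Young, merged cells): with `φ' = lagPot (supp y') w'`,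
`⟪x, y' i⟫ ≤ φ' x + w' (y' i)` everywhere, with equality on the cell of `y' i`; integrate over the
cell of `y i` with the weight `m i / g (y i)` and sum over the labels.
-/

set_option autoImplicit false

noncomputable section

open MeasureTheory Filter Topology
open scoped ENNReal NNReal RealInnerProductSpace

namespace Crest.Agent.Helper54.OT

open Crest.AnalysisR.OT Crest.Agent.Helper75.OT

variable {d : ℕ}

/-! ### The source measure -/

theorem vol_ne_zero {K : Set (E d)} (hK : Body K) : (volume K) ≠ 0 := by
  have h1 : 0 < volume (interior K) := isOpen_interior.measure_pos volume hK.inter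
  exact (lt_of_lt_of_le h1 (measure_mono interior_subset)).ne'

theorem vol_ne_top {K : Set (E d)} (hK : Body K) : (volume K) ≠ ⊤ :=
  hK.compact.measure_lt_top.ne

theorem rho_prob {K : Set (E d)} (hK : Body K) : IsProbabilityMeasure (uniformProbOn K) := by
  refine ⟨?_⟩
  show ((volume K)⁻¹ • volume.restrict K) Set.univ = 1
  simp [ENNReal.inv_mul_cancel (vol_ne_zero hK) (vol_ne_top hK)]

/-- The source measure is absolutely continuous with respect to the volume. -/
theorem rho_null_of_vol_null (K : Set (E d)) {s : Set (E d)} (hs : volume s = 0) :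
    (uniformProbOn K) s = 0 := by
  have h : (volume.restrict K) s = 0 :=
    Measure.absolutelyContinuous_of_le Measure.restrict_le_self hs
  show ((volume K)⁻¹ • volume.restrict K) s = 0
  simp [h]

/-- The source measure is carried by `K`. -/
theorem rho_restrict {K : Set (E d)} (hK : Body K) :
    (uniformProbOn K).restrict K = uniformProbOn K := by
  show ((volume K)⁻¹ • volume.restrict K).restrict K = (volume K)⁻¹ • volume.restrict K
  rw [Measure.restrict_smul, Measure.restrict_restrict hK.compact.isClosed.measurableSet,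
    Set.inter_self]

/-- Continuous functions are integrable against the source measure. -/
theorem integrable_of_continuous {K : Set (E d)} (hK : Body K) {F : Type} [NormedAddCommGroup F]
    (f : E d → F) (hf : Continuous f) : Integrable f (uniformProbOn K) := by
  show Integrable f ((volume K)⁻¹ • volume.restrict K)
  refine Integrable.smul_measure (hf.continuousOn.integrableOn_compact hK.compact) ?_
  simpa using vol_ne_zero hK

/-- Hyperplanes are Lebesgue-null. -/
theorem vol_hyperplane (a : E d) (ha : a ≠ 0) (t : ℝ) :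
    volume {x : E d | ⟪x, a⟫ = t} = 0 := by
  by_cases hne : ({x : E d | ⟪x, a⟫ = t}).Nonempty
  · obtain ⟨x0, hx0⟩ := hne
    have hx0' : ⟪x0, a⟫ = t := hx0
    let V : Submodule ℝ (E d) := LinearMap.ker (innerSL ℝ a).toLinearMap
    have hV : ∀ v : E d, v ∈ V ↔ ⟪a, v⟫ = 0 := fun v => by
      simp [V, LinearMap.mem_ker]
    let s : AffineSubspace ℝ (E d) := AffineSubspace.mk' x0 V
    have hs : s ≠ ⊤ := by
      intro htop
      have hmem : x0 + a ∈ s := by rw [htop]; exact AffineSubspace.mem_top ℝ (E d) _
      rw [AffineSubspace.mem_mk'] at hmem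
      have h0 : ⟪a, a⟫ = 0 := by
        have := (hV _).1 hmem
        simpa using this
      exact ha (inner_self_eq_zero.1 h0)
    have hset : {x : E d | ⟪x, a⟫ = t} = (s : Set (E d)) := by
      ext x
      have hx : x ∈ (s : Set (E d)) ↔ ⟪a, x - x0⟫ = 0 := by
        show x -ᵥ x0 ∈ V ↔ _
        rw [vsub_eq_sub]
        exact hV _
      rw [hx, inner_sub_right, real_inner_comm x a, real_inner_comm x0 a, hx0']
      show ⟪x, a⟫ = t ↔ _
      constructor <;> intro h <;> linarith
    rw [hset]
    exact Measure.addHaar_affineSubspace volume s hs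
  · rw [Set.not_nonempty_iff_eq_empty.1 hne, measure_empty]

/-! ### Cells -/

theorem isClosed_Lag {K : Set (E d)} (hK : Body K) (S : Finset (E d)) (w : E d → ℝ) (c : E d) :
    IsClosed (Lag K S w c) := by
  have : Lag K S w c = K ∩ ⋂ c' ∈ S, {x : E d | ⟪x, c'⟫ - w c' ≤ ⟪x, c⟫ - w c} := by
    ext x
    show (x ∈ K ∧ ∀ c' ∈ S, ⟪x, c'⟫ - w c' ≤ ⟪x, c⟫ - w c) ↔ _
    simp
  rw [this]
  refine hK.compact.isClosed.inter (isClosed_biInter fun c' _ => ?_)
  exact isClosed_le (by fun_prop) (by fun_prop)

theorem measurableSet_Lag {K : Set (E d)} (hK : Body K) (S : Finset (E d)) (w : E d → ℝ)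
    (c : E d) : MeasurableSet (Lag K S w c) :=
  (isClosed_Lag hK S w c).measurableSet

/-- Cells of distinct atoms overlap in a null set. -/
theorem Lag_inter_null {K : Set (E d)} (S : Finset (E d)) (w : E d → ℝ) {c c' : E d}
    (hc : c ∈ S) (hc' : c' ∈ S) (hne : c ≠ c') :
    (uniformProbOn K) (Lag K S w c ∩ Lag K S w c') = 0 := by
  apply rho_null_of_vol_null
  refine measure_mono_null ?_ (vol_hyperplane (c - c') (sub_ne_zero.2 hne) (w c - w c'))
  rintro x ⟨h1, h2⟩
  have e1 := h1.2 c' hc'
  have e2 := h2.2 c hc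
  simp only [Set.mem_ofPred_eq, inner_sub_right]
  linarith

/-- The cells cover `K`. -/
theorem iUnion_Lag (K : Set (E d)) (S : Finset (E d)) (hS : S.Nonempty) (w : E d → ℝ) :
    (⋃ c : S, Lag K S w c) = K := by
  ext x
  constructor
  · intro hx
    obtain ⟨c, hc⟩ := Set.mem_iUnion.1 hx
    exact hc.1
  · intro hx
    obtain ⟨c, hc, hmax⟩ := S.exists_max_image (fun c => ⟪x, c⟫ - w c) hS
    exact Set.mem_iUnion.2 ⟨⟨c, hc⟩, hx, fun c' hc' => hmax c' hc'⟩

/-- Integrals split over the cells. -/
theorem sum_integral_Lag {K : Set (E d)} (hK : Body K) (S : Finset (E d)) (hS : S.Nonempty)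
    (w : E d → ℝ) {F : Type} [NormedAddCommGroup F] [NormedSpace ℝ F] (f : E d → F)
    (hf : Integrable f (uniformProbOn K)) :
    ∑ c ∈ S, ∫ x in Lag K S w c, f x ∂(uniformProbOn K) = ∫ x, f x ∂(uniformProbOn K) := by
  have h1 : ∫ x in ⋃ c : S, Lag K S w c, f x ∂(uniformProbOn K)
      = ∑' c : S, ∫ x in Lag K S w c, f x ∂(uniformProbOn K) := by
    refine integral_iUnion_ae (fun c => (measurableSet_Lag hK S w c).nullMeasurableSet) ?_
      hf.integrableOn
    intro c c' hcc'
    exact Lag_inter_null S w c.2 c'.2 (fun h => hcc' (Subtype.ext h))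
  rw [iUnion_Lag K S hS w, rho_restrict hK, tsum_fintype] at h1
  rw [h1]
  exact (Finset.sum_coe_sort S (fun c => ∫ x in Lag K S w c, f x ∂(uniformProbOn K))).symm

/-! ### The potential -/

theorem lagPot_of_nonempty {S : Finset (E d)} (hS : S.Nonempty) (w : E d → ℝ) (x : E d) :
    lagPot S w x = S.sup' hS (fun c => ⟪x, c⟫ - w c) := by
  show (if h : S.Nonempty then S.sup' h (fun c => ⟪x, c⟫ - w c) else 0) = _
  rw [dif_pos hS]

theorem lagPot_of_not_nonempty {S : Finset (E d)} (hS : ¬ S.Nonempty) (w : E d → ℝ) (x : E d) :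
    lagPot S w x = 0 := by
  show (if h : S.Nonempty then S.sup' h (fun c => ⟪x, c⟫ - w c) else 0) = _
  rw [dif_neg hS]

theorem lagPot_eq_of_mem {K : Set (E d)} {S : Finset (E d)} {w : E d → ℝ} {c x : E d}
    (hc : c ∈ S) (hx : x ∈ Lag K S w c) : lagPot S w x = ⟪x, c⟫ - w c := by
  have hS : S.Nonempty := ⟨c, hc⟩
  rw [lagPot_of_nonempty hS]
  refine le_antisymm (Finset.sup'_le hS _ fun c' hc' => hx.2 c' hc') ?_
  exact Finset.le_sup' (fun c => ⟪x, c⟫ - w c) hc

theorem le_lagPot {S : Finset (E d)} (w : E d → ℝ) {c : E d} (hc : c ∈ S) (x : E d) :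
    ⟪x, c⟫ - w c ≤ lagPot S w x := by
  have hS : S.Nonempty := ⟨c, hc⟩
  rw [lagPot_of_nonempty hS]
  exact Finset.le_sup' (fun c => ⟪x, c⟫ - w c) hc

theorem continuous_lagPot (S : Finset (E d)) (w : E d → ℝ) : Continuous (lagPot S w) := by
  by_cases h : S.Nonempty
  · have e : lagPot S w = fun x => S.sup' h (fun c => ⟪x, c⟫ - w c) :=
      funext fun x => lagPot_of_nonempty h w x
    rw [e]
    exact Continuous.finset_sup'_apply h (fun c _ => by fun_prop)
  · have e : lagPot S w = fun _ => (0 : ℝ) := funext fun x => lagPot_of_not_nonempty h w x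
    rw [e]
    exact continuous_const

/-! ### Merged masses -/

theorem mem_supp {ι : Type} [Fintype ι] (y : ι → E d) (i : ι) : y i ∈ supp y := by
  classical
  show y i ∈ Finset.univ.image y
  exact Finset.mem_image_of_mem y (Finset.mem_univ i)

theorem mergedMass_pos {ι : Type} [Fintype ι] (y : ι → E d) (m : ι → ℝ) (hm : ∀ i, 0 < m i)
    {c : E d} (hc : c ∈ supp y) : 0 < mergedMass y m c := by
  classical
  have hc' : c ∈ Finset.univ.image y := hc
  obtain ⟨i, -, rfl⟩ := Finset.mem_image.1 hc'
  show 0 < ∑ j, if y j = y i then m j else 0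
  refine Finset.sum_pos' (fun j _ => ?_) ⟨i, Finset.mem_univ i, ?_⟩
  · split_ifs
    · exact (hm j).le
    · exact le_rfl
  · simpa using hm i

/-- Regrouping a labelled sum by atoms. -/
theorem sum_supp_mergedMass {ι : Type} [Fintype ι] (y : ι → E d) (m : ι → ℝ) (f : E d → ℝ) :
    ∑ c ∈ supp y, mergedMass y m c * f c = ∑ i, m i * f (y i) := by
  classical
  show ∑ c ∈ supp y, (∑ i, if y i = c then m i else 0) * f c = ∑ i, m i * f (y i)
  simp_rw [Finset.sum_mul]
  rw [Finset.sum_comm]
  refine Finset.sum_congr rfl fun i _ => ?_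
  simp_rw [ite_mul, zero_mul]
  rw [Finset.sum_ite_eq]
  simp [mem_supp]

/-! ### Moments -/

/-- Pairing of the first moment of a cell with a vector. -/
theorem inner_mM {K : Set (E d)} (hK : Body K) (S : Finset (E d)) (w : E d → ℝ) (c v : E d) :
    ⟪mM K S w c, v⟫ = ∫ x in Lag K S w c, ⟪x, v⟫ ∂(uniformProbOn K) := by
  show ⟪∫ x in Lag K S w c, x ∂(uniformProbOn K), v⟫
    = ∫ x in Lag K S w c, ⟪x, v⟫ ∂(uniformProbOn K)
  have hint : Integrable (fun x : E d => x) ((uniformProbOn K).restrict (Lag K S w c)) :=
    (integrable_of_continuous hK (fun x : E d => x) continuous_id).restrict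
  rw [real_inner_comm, ← integral_inner hint v]
  refine integral_congr_ae (Eventually.of_forall fun x => ?_)
  simp [real_inner_comm]

/-- Integral over a cell of a function shifted by a constant. -/
theorem setIntegral_add_const_Lag {K : Set (E d)} (hK : Body K) (S : Finset (E d)) (w : E d → ℝ)
    (c : E d) (f : E d → ℝ) (hf : Integrable f (uniformProbOn K)) (a : ℝ) :
    ∫ x in Lag K S w c, (f x + a) ∂(uniformProbOn K)
      = ∫ x in Lag K S w c, f x ∂(uniformProbOn K) + a * gM K S w c := by
  have := rho_prob hK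
  rw [integral_add hf.restrict (integrable_const a)]
  congr 1
  rw [integral_const, smul_eq_mul, mul_comm]
  congr 1
  show ((uniformProbOn K).restrict (Lag K S w c) Set.univ).toReal
    = ((uniformProbOn K) (Lag K S w c)).toReal
  rw [Measure.restrict_apply_univ]

end Crest.Agent.Helper54.OT

namespace Crest.Agent.Helper75.OT

open Crest.AnalysisR.OT

variable {d : ℕ}

/-- **Package MP.** Subgradient of `Mval` in the positions of the labelled atoms (merged cells,
repeats allowed): moving the labels from `y` to `y'` increases the value at least by the pairing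
of the displacement with the (normalised) first moments of the cells. -/
theorem Mval_position_subgrad {K : Set (E d)} (hK : Body K) {ι : Type} [Fintype ι]
    (y y' : ι → E d) (m : ι → ℝ) (hm : ∀ i, 0 < m i) (hsum : ∑ i, m i = 1) (w w' : E d → ℝ)
    (hw : IsLagWeights K (supp y) (mergedMass y m) w)
    (hw' : IsLagWeights K (supp y') (mergedMass y' m) w') :
    Mval K (supp y) w
        + ∑ i, m i / mergedMass y m (y i) * ⟪mM K (supp y) w (y i), y' i - y i⟫
      ≤ Mval K (supp y') w' := by
  classical
  have hprob := Helper54.OT.rho_prob hK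
  have hne : Nonempty ι := by
    by_contra h
    rw [not_nonempty_iff] at h
    simp at hsum
  have hyS : ∀ i, y i ∈ supp y := Helper54.OT.mem_supp y
  have hyS' : ∀ i, y' i ∈ supp y' := Helper54.OT.mem_supp y'
  have hS : (supp y).Nonempty := ⟨y hne.some, hyS _⟩
  have hS' : (supp y').Nonempty := ⟨y' hne.some, hyS' _⟩
  have hgpos : ∀ c ∈ supp y, 0 < mergedMass y m c :=
    fun c hc => Helper54.OT.mergedMass_pos y m hm hc
  set φ' := lagPot (supp y') w' with hφ'
  have hφint : Integrable φ' (uniformProbOn K) :=
    Helper54.OT.integrable_of_continuous hK _ (Helper54.OT.continuous_lagPot _ _)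
  -- the right-hand side
  have hR : Mval K (supp y') w' = ∫ x, φ' x ∂(uniformProbOn K) + ∑ i, m i * w' (y' i) := by
    rw [← Helper54.OT.sum_supp_mergedMass y' m w',
      ← Helper54.OT.sum_integral_Lag hK (supp y') hS' w' φ' hφint, ← Finset.sum_add_distrib]
    show ∑ c ∈ supp y', ⟪mM K (supp y') w' c, c⟫ = _
    refine Finset.sum_congr rfl fun c hc => ?_
    rw [Helper54.OT.inner_mM hK, ← hw' c hc, mul_comm,
      ← Helper54.OT.setIntegral_add_const_Lag hK _ _ _ _ hφint]
    refine setIntegral_congr_fun (Helper54.OT.measurableSet_Lag hK _ _ _) fun x hx => ?_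
    simp only [hφ', Helper54.OT.lagPot_eq_of_mem hc hx]
    ring
  -- the left-hand side
  have hL : Mval K (supp y) w
      = ∑ i, m i / mergedMass y m (y i) * ⟪mM K (supp y) w (y i), y i⟫ := by
    have := Helper54.OT.sum_supp_mergedMass y m
      (fun c => ⟪mM K (supp y) w c, c⟫ / mergedMass y m c)
    show ∑ c ∈ supp y, ⟪mM K (supp y) w c, c⟫ = _
    rw [show (∑ i, m i / mergedMass y m (y i) * ⟪mM K (supp y) w (y i), y i⟫)
        = ∑ i, m i * (⟪mM K (supp y) w (y i), y i⟫ / mergedMass y m (y i)) from
      Finset.sum_congr rfl fun i _ => by ring, ← this]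
    refine Finset.sum_congr rfl fun c hc => ?_
    have := (hgpos c hc).ne'
    field_simp
  have hLHS : Mval K (supp y) w
        + ∑ i, m i / mergedMass y m (y i) * ⟪mM K (supp y) w (y i), y' i - y i⟫
      = ∑ i, m i / mergedMass y m (y i) * ⟪mM K (supp y) w (y i), y' i⟫ := by
    rw [hL, ← Finset.sum_add_distrib]
    refine Finset.sum_congr rfl fun i _ => ?_
    rw [inner_sub_right]
    ring
  -- the key bound, label by label
  have hkey : ∀ i, m i / mergedMass y m (y i) * ⟪mM K (supp y) w (y i), y' i⟫
      ≤ m i * ((∫ x in Lag K (supp y) w (y i), φ' x ∂(uniformProbOn K)) / mergedMass y m (y i))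
        + m i * w' (y' i) := by
    intro i
    have hg := hgpos (y i) (hyS i)
    have h1 : ⟪mM K (supp y) w (y i), y' i⟫
        ≤ ∫ x in Lag K (supp y) w (y i), φ' x ∂(uniformProbOn K)
          + w' (y' i) * mergedMass y m (y i) := by
      rw [Helper54.OT.inner_mM hK, ← hw (y i) (hyS i),
        ← Helper54.OT.setIntegral_add_const_Lag hK _ _ _ _ hφint]
      refine setIntegral_mono_on ?_ ?_ (Helper54.OT.measurableSet_Lag hK _ _ _) fun x _ => ?_
      · exact (Helper54.OT.integrable_of_continuous hK _ (by fun_prop)).restrict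
      · exact (hφint.add (integrable_const _)).restrict
      · have := Helper54.OT.le_lagPot w' (hyS' i) x
        simp only [hφ']
        linarith
    have h2 : 0 ≤ m i / mergedMass y m (y i) := div_nonneg (hm i).le hg.le
    calc m i / mergedMass y m (y i) * ⟪mM K (supp y) w (y i), y' i⟫
        ≤ m i / mergedMass y m (y i) * (∫ x in Lag K (supp y) w (y i), φ' x ∂(uniformProbOn K)
          + w' (y' i) * mergedMass y m (y i)) := mul_le_mul_of_nonneg_left h1 h2
      _ = _ := by
        have := hg.ne'
        field_simp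
  -- summing up
  have hC : ∑ i, m i * ((∫ x in Lag K (supp y) w (y i), φ' x ∂(uniformProbOn K))
        / mergedMass y m (y i)) = ∫ x, φ' x ∂(uniformProbOn K) := by
    have := Helper54.OT.sum_supp_mergedMass y m
      (fun c => (∫ x in Lag K (supp y) w c, φ' x ∂(uniformProbOn K)) / mergedMass y m c)
    rw [← this, ← Helper54.OT.sum_integral_Lag hK (supp y) hS w φ' hφint]
    refine Finset.sum_congr rfl fun c hc => ?_
    have := (hgpos c hc).ne'
    field_simp
  rw [hLHS, hR, ← hC, ← Finset.sum_add_distrib]
  exact Finset.sum_le_sum fun i _ => hkey i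

end Crest.Agent.Helper75.OT
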